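import Vale.Agent.P125.A57.Window
import Vale.Agent.P125.Char.Conv_A

set_option linter.unusedSectionVars false
set_option linter.unusedVariables false

/-!
# P125 (BV): assembly, abstract form
-/

namespace Vale.Agent.P125.A57

open scoped BigOperators
open Vale.Agent.P125.Dich
open Classical

variable {S M : Type} [Fintype S] [Fintype M]
variable {C : MChain S M} {n : ℕ} {g : M → ℕ → ℝ} {N : M → ℝ}

/-- total variation of the profile of a mark -/
def Vr (n : ℕ) (g : M → ℕ → ℝ) (m : M) : ℝ := ∑ i ∈ Finset.range n, |g m (i + 1) - g m i|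

lemma Vr_nonneg (m : M) : 0 ≤ Vr n g m := Finset.sum_nonneg (fun i _ => abs_nonneg _)

lemma single (h : WD C n g N) (m : M) :
    mu n g N [m] ^ 2 * cc n g N [m] ≤ N m ^ 2 + N m * Vr n g m := by
  have hN := h.N_nonneg m
  have hV : 0 ≤ Vr n g m := Vr_nonneg m
  by_cases hok : okW n g N [m]
  · have e : mu n g N [m] = N m := by
      simp only [mu, if_pos hok]
      rfl
    rw [e]
    have hv : ((cc n g N [m] : ℝ) - 1) * (2 * (3 / 4 * N m)) ≤ Vr n g m := by
      apply altLen_var (setA n g N [m]) (setB n g N [m]) id strictMono_id n ?_ (g m) (3 / 4 * N m)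
        ?_ ?_ hok.2.2.2
      · intro x hx
        rcases Finset.mem_union.1 hx with hx | hx
        · simp only [setA, Finset.mem_filter, Finset.mem_range] at hx
          simp only [id]
          omega
        · simp only [setB, Finset.mem_filter, Finset.mem_range] at hx
          simp only [id]
          omega
      · intro x hx
        simp only [setA, Finset.mem_filter, defA, mn, mnL, List.map_cons, List.map_nil,
          List.sum_cons, List.sum_nil] at hx
        simp only [id]
        linarith [hx.2]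
      · intro x hx
        simp only [setB, Finset.mem_filter, defB, mn, mnL, List.map_cons, List.map_nil,
          List.sum_cons, List.sum_nil] at hx
        simp only [id]
        linarith [hx.2]
    have h1 := mul_le_mul_of_nonneg_left hv hN
    have h2 := mul_nonneg hN hV
    nlinarith
  · have e : mu n g N [m] = 0 := by simp only [mu, if_neg hok]
    rw [e]
    have := mul_nonneg hN hV
    nlinarith [sq_nonneg (N m)]

lemma single_Q (h : WD C n g N) (m : M) : mu n g N [m] ^ 2 ≤ N m ^ 2 := by
  by_cases hok : okW n g N [m]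
  · have e : mu n g N [m] = N m := by
      simp only [mu, if_pos hok]
      rfl
    rw [e]
  · have e : mu n g N [m] = 0 := by simp only [mu, if_neg hok]
    rw [e]
    nlinarith [sq_nonneg (N m)]

lemma defA_eq (l : List M) (k : ℕ) :
    defA g N l k = (l.map N).sum - (l.map (fun m => g m k)).sum := by
  induction l with
  | nil => simp [defA]
  | cons m l ih =>
    simp only [defA, List.map_cons, List.sum_cons] at ih ⊢
    linarith

lemma defB_eq (l : List M) (k : ℕ) :
    defB g N l k = (l.map N).sum + (l.map (fun m => g m k)).sum := by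
  induction l with
  | nil => simp [defB]
  | cons m l ih =>
    simp only [defB, List.map_cons, List.sum_cons] at ih ⊢
    linarith

lemma pointwise_deficit (h : WD C n g N) (T : List M → ℝ) (hT0 : ∀ l, 0 ≤ T l)
    (hT1 : ∀ l, T l ≤ (l.map N).sum)
    (hT2 : ∀ l, ∃ k, k ≤ n ∧ T l = |(l.map (fun m => g m k)).sum|) (l : List M) (hl : l ≠ []) :
    (1 / 16 : ℝ) * (sq2 (l.map N) - 4 * (l.length : ℝ) * mu n g N l ^ 2) ≤
      (l.length : ℝ) * sq2 (l.map N) - T l ^ 2 := by
  have ha : l.map N ≠ [] := by simpa using hl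
  obtain ⟨mx, hmx, hmx2⟩ := exists_max (l.map N) ha
  have hmn : mn N l ∈ l.map N := mnL_mem (l.map N) ha
  have h0 : 0 ≤ mn N l := by
    obtain ⟨m, _, hm⟩ := List.mem_map.1 hmn
    rw [← hm]
    exact h.N_nonneg m
  have hTabs : |T l| = T l := abs_of_nonneg (hT0 l)
  have key := deficit_combined (l.map N) (mn N l) mx (T l) (if okW n g N l then 1 else 0) hmn hmx
    (fun x hx => mnL_le _ x hx) hmx2 h0 (by rw [hTabs]; exact hT1 l)
    (by split_ifs <;> norm_num) (by
      intro p1 p2 p3
      rw [if_pos]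
      refine ⟨hl, p1, fun x hx => (hmx2 (N x) (List.mem_map_of_mem hx)).trans p2, ?_⟩
      obtain ⟨k, hk, hTk⟩ := hT2 l
      rw [hTabs] at p3
      refine ⟨k, ?_⟩
      rw [Finset.mem_union]
      by_cases hs : 0 ≤ (l.map (fun m => g m k)).sum
      · left
        simp only [setA, Finset.mem_filter, Finset.mem_range]
        refine ⟨by omega, ?_⟩
        rw [defA_eq]
        rw [abs_of_nonneg hs] at hTk
        linarith
      · right
        simp only [setB, Finset.mem_filter, Finset.mem_range]
        refine ⟨by omega, ?_⟩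
        rw [defB_eq]
        rw [abs_of_neg (not_le.1 hs)] at hTk
        linarith)
  rw [List.length_map] at key
  have e : mn N l ^ 2 * (if okW n g N l then (1 : ℝ) else 0) = mu n g N l ^ 2 := by
    unfold mu
    split_ifs <;> simp
  have e2 : 4 * (l.length : ℝ) * mn N l ^ 2 * (if okW n g N l then (1 : ℝ) else 0)
      = 4 * (l.length : ℝ) * mu n g N l ^ 2 := by
    rw [mul_assoc, e]
  rw [e2] at key
  exact key

/-- **(BV), abstract form.** -/
theorem BV_abs (h : WD C n g N) (T : List M → ℝ) (hT0 : ∀ l, 0 ≤ T l)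
    (hT1 : ∀ l, T l ≤ (l.map N).sum)
    (hT2 : ∀ l, ∃ k, k ≤ n ∧ T l = |(l.map (fun m => g m k)).sum|) (L : ℕ) :
    C.E (2 ^ L) (fun l => T l ^ 2) ≤
      ((2 : ℝ) ^ L) ^ 2 * C.E 1 (fun l => (l.map (fun m => N m ^ 2)).sum) -
        ((2 : ℝ) ^ L / 16) * (C.E 1 (fun l => (l.map (fun m => N m ^ 2)).sum) -
          4 * (5 * C.E 1 (fun l => (l.map (fun m => N m ^ 2)).sum) +
            4 * C.E 1 (fun l => (l.map (fun m => N m * Vr n g m)).sum)) / ((L : ℝ) + 1)) := by
  set EN := C.E 1 (fun l => (l.map (fun m => N m ^ 2)).sum) with hEN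
  set ENV := C.E 1 (fun l => (l.map (fun m => N m * Vr n g m)).sum) with hENV
  set Q := C.E (2 ^ L) (fun l => mu n g N l ^ 2) with hQ
  have hM : (0 : ℝ) < (2 : ℝ) ^ L := by positivity
  -- step 1 + 2
  have hsq : ∀ l : List M, sq2 (l.map N) = (l.map (fun m => N m ^ 2)).sum := by
    intro l
    unfold sq2
    rw [List.map_map]
    rfl
  have hEsq : C.E (2 ^ L) (fun l => sq2 (l.map N)) = (2 : ℝ) ^ L * EN := by
    simp only [hsq]
    rw [Vale.Agent.P125.Char.E_sum_marks C (fun m => N m ^ 2) (2 ^ L)]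
    push_cast
    rfl
  have hpt : ∀ l : List M, l.length = 2 ^ L →
      T l ^ 2 ≤ ((2 : ℝ) ^ L - 1 / 16) * sq2 (l.map N) + ((2 : ℝ) ^ L / 4) * mu n g N l ^ 2 := by
    intro l hl
    have hne : l ≠ [] := by
      intro h0
      rw [h0] at hl
      simp at hl
      have := Nat.one_le_two_pow (n := L)
      omega
    have := pointwise_deficit h T hT0 hT1 hT2 l hne
    rw [hl] at this
    push_cast at this
    linarith
  have hE := E_mono C (2 ^ L) _ _ hpt
  rw [E_add, E_const_mul, E_const_mul, hEsq] at hE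
  -- step 3
  have hpot := (pot h).potential L
  have hPhi1 : C.E 1 (fun l => mu n g N l ^ 2 * cc n g N l) ≤ EN + ENV := by
    rw [hEN, hENV, ← E_add]
    apply E_mono
    intro l hl
    obtain ⟨m, rfl⟩ := List.length_eq_one_iff.1 hl
    simpa using single h m
  have hQ1 : C.E 1 (fun l => mu n g N l ^ 2) ≤ EN := by
    rw [hEN]
    apply E_mono
    intro l hl
    obtain ⟨m, rfl⟩ := List.length_eq_one_iff.1 hl
    simpa using single_Q h m
  have hL : (0 : ℝ) < (L : ℝ) + 1 := by positivity
  have hQle : Q ≤ (5 * EN + 4 * ENV) / ((L : ℝ) + 1) := by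
    rw [le_div_iff₀ hL]
    linarith
  have h4 : 4 * (5 * EN + 4 * ENV) / ((L : ℝ) + 1) = 4 * ((5 * EN + 4 * ENV) / ((L : ℝ) + 1)) := by
    ring
  rw [h4]
  have h5 : (2 : ℝ) ^ L / 4 * Q ≤ (2 : ℝ) ^ L / 4 * ((5 * EN + 4 * ENV) / ((L : ℝ) + 1)) :=
    mul_le_mul_of_nonneg_left hQle (by positivity)
  nlinarith

end Vale.Agent.P125.A57
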