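import Vale.Agent.P125.A57.Pot
import Vale.Agent.P125.A57.AltVar
import Vale.Agent.P125.A57.Deficit

set_option linter.unusedSectionVars false
set_option linter.unusedVariables false

/-!
# P125 (BV): windows, their deficiency sets, and the potential hypotheses
-/

namespace Vale.Agent.P125.A57

open scoped BigOperators
open Vale.Agent.P125.Dich
open Classical

/-- minimum of a list of reals (`0` for the empty list) -/
def mnL : List ℝ → ℝ
  | [] => 0
  | [x] => x
  | x :: y :: l => min x (mnL (y :: l))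

lemma mnL_mem : ∀ a : List ℝ, a ≠ [] → mnL a ∈ a
  | [], h => absurd rfl h
  | [x], _ => by simp [mnL]
  | x :: y :: l, _ => by
      have ih := mnL_mem (y :: l) (by simp)
      show min x (mnL (y :: l)) ∈ x :: y :: l
      rcases min_choice x (mnL (y :: l)) with h | h
      · rw [h]; exact List.mem_cons_self
      · rw [h]; exact List.mem_cons_of_mem _ ih

lemma mnL_le : ∀ (a : List ℝ) (z : ℝ), z ∈ a → mnL a ≤ z
  | [], z, h => by simp at h
  | [x], z, h => by
      simp at h
      subst h
      exact le_refl _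
  | x :: y :: l, z, h => by
      show min x (mnL (y :: l)) ≤ z
      rcases List.mem_cons.1 h with rfl | h
      · exact min_le_left _ _
      · exact (min_le_right _ _).trans (mnL_le (y :: l) z h)

lemma mnL_congr {a b : List ℝ} (h : ∀ x, x ∈ a ↔ x ∈ b) : mnL a = mnL b := by
  by_cases ha : a = []
  · subst ha
    have : b = [] := by
      apply List.eq_nil_iff_forall_not_mem.2
      intro x hx
      exact absurd ((h x).2 hx) (List.not_mem_nil)
    rw [this]
  · have hb : b ≠ [] := by
      intro hb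
      subst hb
      obtain ⟨x, hx⟩ := List.exists_mem_of_ne_nil a ha
      exact absurd ((h x).1 hx) (List.not_mem_nil)
    apply le_antisymm
    · exact mnL_le a _ ((h _).2 (mnL_mem b hb))
    · exact mnL_le b _ ((h _).1 (mnL_mem a ha))

lemma exists_max (a : List ℝ) (ha : a ≠ []) : ∃ mx ∈ a, ∀ x ∈ a, x ≤ mx := by
  have h1 := mnL_mem (a.map (fun x => -x)) (by simpa using ha)
  obtain ⟨y, hy, hy2⟩ := List.mem_map.1 h1
  refine ⟨y, hy, fun x hx => ?_⟩
  have h2 := mnL_le (a.map (fun x => -x)) (-x) (List.mem_map.2 ⟨x, hx, rfl⟩)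
  linarith

variable {S M : Type} [Fintype S] [Fintype M]

/-- the data: profiles `g m k` (`k ≤ n`), bounded by `N m`, odd under the involution -/
structure WD (C : MChain S M) (n : ℕ) (g : M → ℕ → ℝ) (N : M → ℝ) : Prop where
  bound : ∀ m k, k ≤ n → |g m k| ≤ N m
  g_inv : ∀ m k, g (C.inv m) k = - g m k
  N_inv : ∀ m, N (C.inv m) = N m

def mn (N : M → ℝ) (l : List M) : ℝ := mnL (l.map N)

def defA (g : M → ℕ → ℝ) (N : M → ℝ) (l : List M) (k : ℕ) : ℝ :=
  (l.map (fun m => N m - g m k)).sum

def defB (g : M → ℕ → ℝ) (N : M → ℝ) (l : List M) (k : ℕ) : ℝ :=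
  (l.map (fun m => N m + g m k)).sum

noncomputable def setA (n : ℕ) (g : M → ℕ → ℝ) (N : M → ℝ) (l : List M) : Finset ℕ :=
  (Finset.range (n + 1)).filter (fun k => defA g N l k ≤ mn N l / 4)

noncomputable def setB (n : ℕ) (g : M → ℕ → ℝ) (N : M → ℝ) (l : List M) : Finset ℕ :=
  (Finset.range (n + 1)).filter (fun k => defB g N l k ≤ mn N l / 4)

def okW (n : ℕ) (g : M → ℕ → ℝ) (N : M → ℝ) (l : List M) : Prop :=
  l ≠ [] ∧ 0 < mn N l ∧ (∀ x ∈ l, N x ≤ 2 * mn N l) ∧ (setA n g N l ∪ setB n g N l).Nonempty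

noncomputable def mu (n : ℕ) (g : M → ℕ → ℝ) (N : M → ℝ) (l : List M) : ℝ :=
  if okW n g N l then mn N l else 0

noncomputable def cc (n : ℕ) (g : M → ℕ → ℝ) (N : M → ℝ) (l : List M) : ℕ :=
  altLen (setA n g N l) (setB n g N l)

noncomputable def sg (n : ℕ) (g : M → ℕ → ℝ) (N : M → ℝ) (l : List M) : ℝ :=
  ((altSig (setA n g N l) (setB n g N l) : ℤ) : ℝ)

variable {C : MChain S M} {n : ℕ} {g : M → ℕ → ℝ} {N : M → ℝ}

lemma WD.N_nonneg (h : WD C n g N) (m : M) : 0 ≤ N m :=
  (abs_nonneg _).trans (h.bound m 0 (Nat.zero_le _))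

lemma defA_append (l1 l2 : List M) (k : ℕ) :
    defA g N (l1 ++ l2) k = defA g N l1 k + defA g N l2 k := by
  simp [defA]

lemma defB_append (l1 l2 : List M) (k : ℕ) :
    defB g N (l1 ++ l2) k = defB g N l1 k + defB g N l2 k := by
  simp [defB]

lemma defA_nonneg (h : WD C n g N) {k : ℕ} (hk : k ≤ n) (l : List M) : 0 ≤ defA g N l k := by
  apply List.sum_nonneg
  intro x hx
  obtain ⟨m, _, rfl⟩ := List.mem_map.1 hx
  have h1 := h.bound m k hk
  have h2 := le_abs_self (g m k)
  linarith

lemma defB_nonneg (h : WD C n g N) {k : ℕ} (hk : k ≤ n) (l : List M) : 0 ≤ defB g N l k := by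
  apply List.sum_nonneg
  intro x hx
  obtain ⟨m, _, rfl⟩ := List.mem_map.1 hx
  have h1 := h.bound m k hk
  have h2 := neg_abs_le (g m k)
  linarith

lemma defA_add_defB (l : List M) (k : ℕ) :
    defA g N l k + defB g N l k = 2 * (l.map N).sum := by
  induction l with
  | nil => simp [defA, defB]
  | cons m l ih =>
    simp only [defA, defB, List.map_cons, List.sum_cons] at ih ⊢
    linarith

lemma mn_append_left (l1 l2 : List M) (h1 : l1 ≠ []) : mn N (l1 ++ l2) ≤ mn N l1 := by
  apply mnL_le
  have := mnL_mem (l1.map N) (by simpa using h1)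
  rw [List.map_append, List.mem_append]
  exact Or.inl this

lemma mn_append_right (l1 l2 : List M) (h2 : l2 ≠ []) : mn N (l1 ++ l2) ≤ mn N l2 := by
  apply mnL_le
  have := mnL_mem (l2.map N) (by simpa using h2)
  rw [List.map_append, List.mem_append]
  exact Or.inr this

lemma setA_left (h : WD C n g N) (l1 l2 : List M) (h1 : l1 ≠ []) :
    setA n g N (l1 ++ l2) ⊆ setA n g N l1 := by
  intro k hk
  simp only [setA, Finset.mem_filter, Finset.mem_range] at hk ⊢
  refine ⟨hk.1, ?_⟩
  have e1 := defA_nonneg h (by omega : k ≤ n) l2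
  have e2 := mn_append_left (N := N) l1 l2 h1
  have e3 := hk.2
  rw [defA_append] at e3
  linarith

lemma setA_right (h : WD C n g N) (l1 l2 : List M) (h2 : l2 ≠ []) :
    setA n g N (l1 ++ l2) ⊆ setA n g N l2 := by
  intro k hk
  simp only [setA, Finset.mem_filter, Finset.mem_range] at hk ⊢
  refine ⟨hk.1, ?_⟩
  have e1 := defA_nonneg h (by omega : k ≤ n) l1
  have e2 := mn_append_right (N := N) l1 l2 h2
  have e3 := hk.2
  rw [defA_append] at e3
  linarith

lemma setB_left (h : WD C n g N) (l1 l2 : List M) (h1 : l1 ≠ []) :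
    setB n g N (l1 ++ l2) ⊆ setB n g N l1 := by
  intro k hk
  simp only [setB, Finset.mem_filter, Finset.mem_range] at hk ⊢
  refine ⟨hk.1, ?_⟩
  have e1 := defB_nonneg h (by omega : k ≤ n) l2
  have e2 := mn_append_left (N := N) l1 l2 h1
  have e3 := hk.2
  rw [defB_append] at e3
  linarith

lemma setB_right (h : WD C n g N) (l1 l2 : List M) (h2 : l2 ≠ []) :
    setB n g N (l1 ++ l2) ⊆ setB n g N l2 := by
  intro k hk
  simp only [setB, Finset.mem_filter, Finset.mem_range] at hk ⊢
  refine ⟨hk.1, ?_⟩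
  have e1 := defB_nonneg h (by omega : k ≤ n) l1
  have e2 := mn_append_right (N := N) l1 l2 h2
  have e3 := hk.2
  rw [defB_append] at e3
  linarith

lemma ok_left (h : WD C n g N) (l1 l2 : List M) (h1 : l1 ≠ []) (hok : okW n g N (l1 ++ l2)) :
    okW n g N l1 := by
  have e := mn_append_left (N := N) l1 l2 h1
  refine ⟨h1, lt_of_lt_of_le hok.2.1 e, fun x hx => ?_, ?_⟩
  · have := hok.2.2.1 x (List.mem_append_left _ hx)
    linarith
  · exact hok.2.2.2.mono (Finset.union_subset_union (setA_left h l1 l2 h1) (setB_left h l1 l2 h1))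

lemma ok_right (h : WD C n g N) (l1 l2 : List M) (h2 : l2 ≠ []) (hok : okW n g N (l1 ++ l2)) :
    okW n g N l2 := by
  have e := mn_append_right (N := N) l1 l2 h2
  refine ⟨h2, lt_of_lt_of_le hok.2.1 e, fun x hx => ?_, ?_⟩
  · have := hok.2.2.1 x (List.mem_append_right _ hx)
    linarith
  · exact hok.2.2.2.mono (Finset.union_subset_union (setA_right h l1 l2 h2) (setB_right h l1 l2 h2))

lemma mn_le_sum (h : WD C n g N) (l : List M) (hl : l ≠ []) : mn N l ≤ (l.map N).sum := by
  apply List.single_le_sum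
  · intro x hx
    obtain ⟨m, _, rfl⟩ := List.mem_map.1 hx
    exact h.N_nonneg m
  · exact mnL_mem _ (by simpa using hl)

lemma disj (h : WD C n g N) (l : List M) (hok : okW n g N l) :
    Disjoint (setA n g N l) (setB n g N l) := by
  rw [Finset.disjoint_left]
  intro k hA hB
  simp only [setA, setB, Finset.mem_filter, Finset.mem_range] at hA hB
  have e1 := defA_add_defB (g := g) (N := N) l k
  have e2 := mn_le_sum h l hok.1
  have e3 := hok.2.1
  linarith [hA.2, hB.2]

lemma mn_rev (h : WD C n g N) (l : List M) : mn N ((l.map C.inv).reverse) = mn N l := by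
  unfold mn
  have e : List.map N (List.map C.inv l).reverse = (l.map N).reverse := by
    rw [List.map_reverse, List.map_map]
    congr 1
    apply List.map_congr_left
    intro m _
    exact h.N_inv m
  rw [e]
  apply mnL_congr
  intro x
  exact List.mem_reverse

lemma defA_rev (h : WD C n g N) (l : List M) (k : ℕ) :
    defA g N ((l.map C.inv).reverse) k = defB g N l k := by
  unfold defA defB
  rw [List.map_reverse, List.sum_reverse, List.map_map]
  congr 1
  apply List.map_congr_left
  intro m _
  simp only [Function.comp, h.g_inv, h.N_inv]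
  ring

lemma defB_rev (h : WD C n g N) (l : List M) (k : ℕ) :
    defB g N ((l.map C.inv).reverse) k = defA g N l k := by
  unfold defA defB
  rw [List.map_reverse, List.sum_reverse, List.map_map]
  congr 1
  apply List.map_congr_left
  intro m _
  simp only [Function.comp, h.g_inv, h.N_inv]
  ring

lemma setA_rev (h : WD C n g N) (l : List M) :
    setA n g N ((l.map C.inv).reverse) = setB n g N l := by
  unfold setA setB
  simp only [defA_rev h, mn_rev h]

lemma setB_rev (h : WD C n g N) (l : List M) :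
    setB n g N ((l.map C.inv).reverse) = setA n g N l := by
  unfold setA setB
  simp only [defB_rev h, mn_rev h]

lemma ok_rev (h : WD C n g N) (l : List M) :
    okW n g N ((l.map C.inv).reverse) ↔ okW n g N l := by
  unfold okW
  rw [mn_rev h, setA_rev h, setB_rev h, Finset.union_comm]
  have e1 : ((l.map C.inv).reverse ≠ []) ↔ l ≠ [] := by simp
  have e2 : (∀ x ∈ (l.map C.inv).reverse, N x ≤ 2 * mn N l) ↔ (∀ x ∈ l, N x ≤ 2 * mn N l) := by
    simp only [List.mem_reverse, List.mem_map]
    constructor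
    · intro hh x hx
      have := hh (C.inv x) ⟨x, hx, rfl⟩
      rwa [h.N_inv] at this
    · rintro hh x ⟨y, hy, rfl⟩
      rw [h.N_inv]
      exact hh y hy
  rw [e1, e2]

lemma mu_nonneg' (l : List M) : 0 ≤ mu n g N l := by
  unfold mu
  split_ifs with hok
  · exact hok.2.1.le
  · exact le_refl _

lemma ok_of_mu (l : List M) (hl : mu n g N l ≠ 0) : okW n g N l := by
  by_contra hn
  exact hl (by simp [mu, hn])

/-- the window functionals satisfy the hypotheses of the potential recursion -/
theorem pot (h : WD C n g N) : Pot C (mu n g N) (sg n g N) (cc n g N) where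
  mu_nonneg := mu_nonneg'
  mu_rev l := by
    by_cases hok : okW n g N l
    · simp only [mu, if_pos hok, if_pos ((ok_rev h l).2 hok), mn_rev h]
    · simp only [mu, if_neg hok, if_neg (fun hh => hok ((ok_rev h l).1 hh))]
  sg_pm l := by
    rcases altSig_eq_or (setA n g N l) (setB n g N l) with e | e <;> simp [sg, e]
  sg_rev l hl := by
    have hok := ok_of_mu l hl
    unfold sg
    rw [setA_rev h, setB_rev h, altSig_swap (disj h l hok) hok.2.2.2]
    push_cast
    ring
  mu_left l1 l2 h1 h2 := by
    by_cases hok : okW n g N (l1 ++ l2)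
    · simp only [mu, if_pos hok, if_pos (ok_left h l1 l2 h1 hok)]
      exact mn_append_left l1 l2 h1
    · simp only [mu, if_neg hok]
      exact mu_nonneg' l1
  mu_right l1 l2 h1 h2 := by
    by_cases hok : okW n g N (l1 ++ l2)
    · simp only [mu, if_pos hok, if_pos (ok_right h l1 l2 h2 hok)]
      exact mn_append_right l1 l2 h2
    · simp only [mu, if_neg hok]
      exact mu_nonneg' l2
  cc_left l1 l2 h1 h2 _ := altLen_mono (setA_left h l1 l2 h1) (setB_left h l1 l2 h1)
  cc_right l1 l2 h1 h2 _ := altLen_mono (setA_right h l1 l2 h2) (setB_right h l1 l2 h2)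
  sg_left l1 l2 h1 h2 hl hc := by
    have hok := ok_of_mu _ hl
    unfold sg
    rw [altSig_eq_of_altLen_eq (setA_left h l1 l2 h1) (setB_left h l1 l2 h1)
      (disj h l1 (ok_left h l1 l2 h1 hok)) hok.2.2.2 hc]
  sg_right l1 l2 h1 h2 hl hc := by
    have hok := ok_of_mu _ hl
    unfold sg
    rw [altSig_eq_of_altLen_eq (setA_right h l1 l2 h2) (setB_right h l1 l2 h2)
      (disj h l2 (ok_right h l1 l2 h2 hok)) hok.2.2.2 hc]

end Vale.Agent.P125.A57
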